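import Vale.Agent.P207.N3.H824.Kap

/-!
# The kernel, 2 (helper824, P2-N)
-/

open Set Filter Topology Metric MeasureTheory
open scoped ContDiff

noncomputable section

namespace Vale.Agent.P207.N3.H824

variable {Γ X B : Type} [Group Γ] [MetricSpace X] [ProperSpace X] [MulAction Γ X]
  [IsIsometricSMul Γ X] [TopologicalSpace B] [CompactSpace B] [T2Space B] [MulAction Γ B]
  [ContinuousConstSMul Γ B]

variable {L : Leaf Γ X B}

/-- the normalised bump -/
def kap (d : Dens0 L) (r : ℝ) (x : X) (η : B) : ℝ := Psi L r x η / mass d r x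

theorem kap_cont (d : Dens0 L) {r : ℝ} (hr0 : 0 < r) (hr : r ≤ 1) :
    Continuous fun p : X × B => kap d r p.1 p.2 :=
  (Psi_cont L hr).div ((mass_cont d r).comp continuous_fst) fun _ => (mass_pos d hr0 hr _).ne'

theorem kap_nonneg (d : Dens0 L) {r : ℝ} (hr0 : 0 < r) (hr : r ≤ 1) (x : X) (η : B) :
    0 ≤ kap d r x η := div_nonneg (Psi_nonneg _ _ _) (mass_pos d hr0 hr x).le

theorem kap_smul (d : Dens0 L) (r : ℝ) (g : Γ) (x : X) (η : B) :
    kap d r (g • x) (g • η) = kap d r x η := by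
  rw [kap, kap, Psi_smul, mass_smul]

theorem kap_rot (d : Dens0 L) {r : ℝ} (hr : r ≤ 1) (a : O2) (x : X) (η : B) :
    kap d r (L.rot a x) η = kap d r x η := by
  rw [kap, kap, Psi_rot, mass_rot d hr]

theorem mem_of_kap {d : Dens0 L} {r : ℝ} {x : X} {η : B} (h : kap d r x η ≠ 0) :
    η ∈ L.e x '' closedBall 0 r := by
  have h1 : Psi L r x η ≠ 0 := fun hc => h (by rw [kap, hc, zero_div])
  exact image_mono inter_subset_left (mem_of_Psi h1)

/-- the kernel, as a function of the centre -/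
def ker (d : Dens0 L) (r : ℝ) (x : X) (η : B) : ℝ :=
  open Classical in
  if L.em x = η then 0 else kap d r (frm L (L.em x) η (L.lv x)) (L.ep x)

theorem ker_eq (d : Dens0 L) (r : ℝ) {x : X} {η : B} (h : L.em x ≠ η) :
    ker d r x η = kap d r (frm L (L.em x) η (L.lv x)) (L.ep x) := by
  rw [ker, if_neg h]

theorem ker_nonneg (d : Dens0 L) {r : ℝ} (hr0 : 0 < r) (hr : r ≤ 1) (x : X) (η : B) :
    0 ≤ ker d r x η := by
  unfold ker
  split_ifs
  · exact le_rfl
  · exact kap_nonneg d hr0 hr _ _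

/-- the admissible radii -/
def Adm (L : Leaf Γ X B) (r : ℝ) : Prop := ∀ x z, L.em x = L.em z → L.lv x = L.lv z →
    L.ep x ∈ L.e z '' closedBall 0 r → L.ep z ∈ L.e x '' ball 0 1

theorem mem_of_ker {d : Dens0 L} {r : ℝ} (_hr : r ≤ 1) (ha : Adm L r) {x : X} {η : B}
    (h : ker d r x η ≠ 0) : L.em x ≠ η ∧ η ∈ L.e x '' ball 0 1 := by
  by_cases h1 : L.em x = η
  · exact absurd (by rw [ker, if_pos h1]) h
  · refine ⟨h1, ?_⟩
    rw [ker_eq d r h1] at h
    have h2 := mem_of_kap h
    have h3 := ha x (frm L (L.em x) η (L.lv x)) (em_frm h1 _).symm (lv_frm h1 _).symm h2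
    rwa [ep_frm h1] at h3

theorem ker_cont (d : Dens0 L) {r : ℝ} (hr0 : 0 < r) (hr : r ≤ 1) (ha : Adm L r) :
    Continuous fun p : X × B => ker d r p.1 p.2 := by
  have h1 := descend_on L (Z := B) (f := fun p : X × B => kap d r p.1 p.2) (kap_cont d hr0 hr)
    (fun a x z => kap_rot d hr a x z)
  have h2 : ContinuousOn (fun p : X × B => kap d r (frm L (L.em p.1) p.2 (L.lv p.1)) (L.ep p.1))
      {p | L.em p.1 ≠ p.2} := by
    refine h1.comp (f := fun p : X × B => (((L.em p.1, p.2), L.lv p.1), L.ep p.1)) ?_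
      (fun p hp => hp)
    have c1 := L.em_cont
    have c2 := L.lv_cont
    have c3 := ep_cont L
    fun_prop
  have hO1 : IsOpen {p : X × B | L.em p.1 ≠ p.2} :=
    isOpen_ne_fun (L.em_cont.comp continuous_fst) continuous_snd
  rw [continuous_iff_continuousAt]
  intro p
  by_cases hp : L.em p.1 = p.2
  · have hO : {q : X × B | q.2 ∈ L.e q.1 '' closedBall 0 1}ᶜ ∈ 𝓝 p :=
      (closed_disc L isClosed_closedBall
        (closedBall_subset_closedBall (by norm_num))).isOpen_compl.mem_nhds (fun hc => by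
          obtain ⟨u, hu, he⟩ := hc
          exact L.e_ne p.1 u (closedBall_subset_closedBall (by norm_num) hu) (he.trans hp.symm))
    refine (continuousAt_const (y := (0 : ℝ))).congr ?_
    filter_upwards [hO] with q hq
    by_contra hne
    exact hq (image_mono ball_subset_closedBall (mem_of_ker hr ha (Ne.symm hne)).2)
  · refine (h2.continuousAt (hO1.mem_nhds hp)).congr ?_
    filter_upwards [hO1.mem_nhds hp] with q hq
    exact (ker_eq d r hq).symm

theorem ker_smul (d : Dens0 L) {r : ℝ} (hr : r ≤ 1) (g : Γ) (x : X) (η : B) :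
    ker d r (g • x) (g • η) = ker d r x η := by
  by_cases h : L.em x = η
  · have h' : L.em (g • x) = g • η := by rw [L.em_smul, h]
    rw [ker, ker, if_pos h, if_pos h']
  · have h' : L.em (g • x) ≠ g • η := by
      rw [L.em_smul]
      exact fun hc => h (smul_left_cancel _ hc)
    rw [ker_eq d r h, ker_eq d r h']
    set z := frm L (L.em x) η (L.lv x) with hz
    have hz1 : L.em z = L.em x := em_frm h _
    have hz2 : L.ep z = η := ep_frm h _
    have hz3 : L.lv z = L.lv x := lv_frm h _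
    obtain ⟨a, ha⟩ := frm_eq L (x := g • z) (y := frm L (L.em (g • x)) (g • η) (L.lv (g • x)))
      (by rw [em_frm h', L.em_smul, L.em_smul, hz1]) (by rw [ep_frm h', ep_smul, hz2])
      (by
        rw [lv_frm h']
        have := L.lv_smul g z x hz1
        rw [hz3, sub_self] at this
        linarith)
    rw [ha, kap_rot d hr, ep_smul, kap_smul]

/-- the area of the kernel of `x`, measured in the chart `e x'` -/
def J (d : Dens0 L) (r : ℝ) (p : X × X) : ℝ :=
  ∫ u in closedBall (0 : E2) 2, ker d r p.1 (et L p.2 u) * st d p.2 u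

theorem J_cont (d : Dens0 L) {r : ℝ} (hr0 : 0 < r) (hr : r ≤ 1) (ha : Adm L r) :
    Continuous (J d r) := by
  refine continuous_parametric_integral_of_continuous
    (f := fun (p : X × X) u => ker d r p.1 (et L p.2 u) * st d p.2 u) ?_
    (isCompact_closedBall _ _)
  have h1 := (ker_cont d hr0 hr ha).comp
    (f := fun q : (X × X) × E2 => (q.1.1, et L q.1.2 q.2)) (by
      have := (et_cont L).comp (f := fun q : (X × X) × E2 => (q.1.2, q.2)) (by fun_prop)
      exact (by fun_prop : Continuous fun q : (X × X) × E2 => q.1.1).prodMk this)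
  have h2 := (st_cont d).comp (f := fun q : (X × X) × E2 => (q.1.2, q.2)) (by fun_prop)
  exact h1.mul h2

theorem J_smul (d : Dens0 L) {r : ℝ} (hr : r ≤ 1) (g : Γ) (x y : X) :
    J d r (g • x, g • y) = J d r (x, y) := by
  unfold J
  simp only [st_smul, et_smul, ker_smul d hr]

theorem J_nonneg (d : Dens0 L) {r : ℝ} (hr0 : 0 < r) (hr : r ≤ 1) (p : X × X) : 0 ≤ J d r p :=
  setIntegral_nonneg isClosed_closedBall.measurableSet fun u _ =>
    mul_nonneg (ker_nonneg d hr0 hr _ _) (st_pos d _ u).le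

/-- the kernel of `x` lives on the disc of radius `2` of every frame close to `x` -/
theorem exists_ker_supp (L : Leaf Γ X B) : ∃ δ > 0, ∀ (d : Dens0 L) (r : ℝ), r ≤ 1 → Adm L r →
    ∀ x x' : X, dist x x' < δ → ∀ η, ker d r x η ≠ 0 → η ∈ L.e x' '' ball 0 2 := by
  obtain ⟨δ, hδ, h⟩ := exists_enl L
  refine ⟨δ, hδ, fun d r hr ha x x' hxx η hη => h x x' hxx ?_⟩
  exact image_mono ball_subset_closedBall (mem_of_ker hr ha hη).2

end Vale.Agent.P207.N3.H824
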