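import Vale.Agent.P207.N3.H824.Hol

/-!
# The measure `ν` (helper824, P2-N)
-/

open Set Filter Topology Metric MeasureTheory
open scoped ContDiff ENNReal

noncomputable section

namespace Vale.Agent.P207.N3.H824

variable {Γ X B : Type} [Group Γ] [MetricSpace X] [ProperSpace X] [MulAction Γ X]
  [IsIsometricSMul Γ X] [TopologicalSpace B] [CompactSpace B] [T2Space B] [MulAction Γ B]
  [ContinuousConstSMul Γ B] [MeasurableSpace B] [BorelSpace B]

variable {L : Leaf Γ X B}

theorem mu_le_eps (d : Dens0 L) {ξ ζ : B} {C O : Set B} (hC : IsCompact C) (hO : IsOpen O)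
    (hCO : C ⊆ O) (hξ : ξ ∉ O) (hζ : ζ ∉ O) {ε : ℝ} (hε : 0 < ε) :
    mu d ζ C ≤ ENNReal.ofReal (Real.exp (2 * ε)) * mu d ξ O
      + ENNReal.ofReal (ε * Real.exp ε) * mu d ξ O := by
  obtain ⟨r, hr0, hr, ha⟩ := exists_r L
  obtain ⟨K, hK, hCK, hKO⟩ := exists_compact_between hC hO hCO
  have hξK : ξ ∉ K := fun h => hξ (hKO h)
  have hζK : ζ ∉ K := fun h => hζ (hKO h)
  have hξC : ξ ∉ C := fun h => hξ (hCO h)
  obtain ⟨δ1, hδ1, hs⟩ := exists_ker_supp L
  obtain ⟨δ2, hδ2, hJ⟩ := unif_diag L (J_cont d hr0 hr ha) (J_smul d hr) hε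
  obtain ⟨T1, hT1⟩ := unif_hol L hK hξK hζK (lt_min hδ1 hδ2)
  have hε' : 0 < ε / (|d.h| + 1) := by positivity
  obtain ⟨T2, hT2⟩ := unif_D L hK hξK hζK hε'
  obtain ⟨T3, hT3⟩ := unif_D L hK hξK hξK hε'
  obtain ⟨T4, hT4⟩ := unif_shrink L hK hO hKO hξK
  obtain ⟨T5, hT5⟩ := unif_shrink L hC isOpen_interior hCK hξC
  set T := max T1 (max T2 (max T3 (max T4 T5))) with hT
  have t1 : T1 ≤ T := le_max_left _ _
  have t2 : T2 ≤ T := (le_max_left _ _).trans (le_max_right _ _)
  have t3 : T3 ≤ T := ((le_max_left _ _).trans (le_max_right _ _)).trans (le_max_right _ _)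
  have t4 : T4 ≤ T := (((le_max_left _ _).trans (le_max_right _ _)).trans
    (le_max_right _ _)).trans (le_max_right _ _)
  have t5 : T5 ≤ T := (((le_max_right _ _).trans (le_max_right _ _)).trans
    (le_max_right _ _)).trans (le_max_right _ _)
  have hscale : ∀ a : ℝ, |a| < ε / (|d.h| + 1) → |d.h * a| ≤ ε := by
    intro a h
    rw [abs_mul]
    have h1 : |d.h| * |a| ≤ (|d.h| + 1) * (ε / (|d.h| + 1)) :=
      mul_le_mul (by linarith) h.le (abs_nonneg _) (by positivity)
    rwa [mul_div_cancel₀ _ (by positivity : |d.h| + 1 ≠ 0)] at h1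
  -- (A)
  have hA : ∀ η' ∈ C, ∫⁻ η in interior K, KT d r ξ T (η, η') ∂(sig d ξ) = 1 := by
    intro η' hη'
    have hne : ξ ≠ η' := fun h => hξC (h ▸ hη')
    rw [setLIntegral_eq_of_support_subset, KT_norm d hr0 hr hne]
    intro η hη
    have h1 := KT_supp d hne hη
    refine hT5 (frm L ξ η' T) (em_frm hne _) (by rwa [ep_frm hne]) (by rwa [lv_frm hne]) ?_
    exact image_mono (closedBall_subset_ball (by linarith)) h1
  -- (B)
  have hB : ∀ η ∈ interior K, ∫⁻ η', KT d r ξ T (η, η') ∂(mu d ζ)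
      ≤ ENNReal.ofReal (Real.exp (2 * ε)) * ∫⁻ η', KT d r ξ T (η, η') ∂(mu d ξ)
        + ENNReal.ofReal (ε * Real.exp ε) * eD d ξ η := by
    intro η hη
    have hηK : η ∈ K := interior_subset hη
    have hne : ξ ≠ η := fun h => hξK (h ▸ hηK)
    have hne' : ζ ≠ η := fun h => hζK (h ▸ hηK)
    obtain ⟨x, hx1, hx2, hx3⟩ := L.exists_frame ξ η hne T
    have hcen : ∀ η', KT d r ξ T (η, η')
        = ENNReal.ofReal (Real.exp (d.h * L.lv x) * ker d r x η') := by
      intro η'
      rw [← KT_center, hx1, hx2, hx3]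
    have hzx : ζ ≠ L.ep x := by rwa [hx2]
    have hxx : ξ ≠ L.ep x := by rwa [hx2]
    have hdist := hT1 x hx1 (by rwa [hx2]) (by rwa [hx3])
    have hemz : L.em (L.hol ζ x) = ζ := L.hol_em _ _ hzx
    have hself : L.hol ξ x = x := by rw [← hx1, L.hol_self]
    simp only [hcen]
    have hup := ker_up d hr0 hr ha (x := x) (x' := L.hol ζ x) (L.hol_ep _ _ hzx)
      (L.hol_lp _ _ hzx) (hs d r hr ha x _ (hdist.trans_le (min_le_left _ _))) (ε := ε) (by
        intro u hu
        have h1 := hT2 x hx1 (by rwa [hx2]) (by rwa [hx3]) u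
          (closedBall_subset_ball (by norm_num) hu)
        rw [hemz, et_eq _ hu]
        exact (le_abs_self _).trans (hscale _ h1))
    have hlow := ker_low d hr0 hr ha (x := x) (x' := x) rfl rfl
      (hs d r hr ha x x (by rw [dist_self]; exact hδ1)) (ε := ε) (by
        intro u hu
        have h1 := hT3 x hx1 (by rwa [hx2]) (by rwa [hx3]) u
          (closedBall_subset_ball (by norm_num) hu)
        rw [hself] at h1
        rw [hx1, et_eq _ hu]
        exact (abs_le.1 (hscale _ h1)).1)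
    rw [hemz] at hup
    rw [hx1, hx2] at hup hlow
    have hJ1 := (abs_lt.1 (hJ x (L.hol ζ x) (hdist.trans_le (min_le_right _ _)))).2
    have hJ0 := J_nonneg d hr0 hr (x, x)
    refine hup.trans ?_
    have h2 : Real.exp (d.h * D L ξ η + ε) * J d r (x, L.hol ζ x)
        ≤ Real.exp (2 * ε) * (Real.exp (d.h * D L ξ η - ε) * J d r (x, x))
          + ε * Real.exp ε * Real.exp (d.h * D L ξ η) := by
      have h3 : Real.exp (2 * ε) * (Real.exp (d.h * D L ξ η - ε) * J d r (x, x))
          + ε * Real.exp ε * Real.exp (d.h * D L ξ η)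
          = Real.exp (d.h * D L ξ η + ε) * (J d r (x, x) + ε) := by
        have e1 : Real.exp (2 * ε) * Real.exp (d.h * D L ξ η - ε)
            = Real.exp (d.h * D L ξ η + ε) := by
          rw [← Real.exp_add]
          congr 1
          ring
        have e2 : Real.exp ε * Real.exp (d.h * D L ξ η) = Real.exp (d.h * D L ξ η + ε) := by
          rw [← Real.exp_add]
          congr 1
          ring
        rw [← mul_assoc, e1, mul_assoc, e2]
        ring
      rw [h3]
      exact mul_le_mul_of_nonneg_left (by linarith) (Real.exp_pos _).le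
    refine (ENNReal.ofReal_le_ofReal h2).trans ?_
    rw [ENNReal.ofReal_add (by positivity) (by positivity),
      ENNReal.ofReal_mul (Real.exp_pos _).le (p := Real.exp (2 * ε)),
      ENNReal.ofReal_mul (p := ε * Real.exp ε) (by positivity)]
    exact add_le_add (mul_le_mul_right hlow _) le_rfl
  -- (D)
  have hD : ∀ η', ∫⁻ η in interior K, KT d r ξ T (η, η') ∂(sig d ξ)
      ≤ O.indicator 1 η' := by
    intro η'
    by_cases hη' : η' ∈ O
    · have hne : ξ ≠ η' := fun h => hξ (h ▸ hη')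
      rw [indicator_of_mem hη']
      refine (setLIntegral_le_lintegral _ _).trans ?_
      rw [KT_norm d hr0 hr hne]
      exact le_rfl
    · rw [indicator_of_notMem hη', setLIntegral_eq_zero isOpen_interior.measurableSet]
      intro η hη
      have hηK : η ∈ K := interior_subset hη
      have hne : ξ ≠ η := fun h => hξK (h ▸ hηK)
      obtain ⟨x, hx1, hx2, hx3⟩ := L.exists_frame ξ η hne T
      have hcen := KT_center d r x η'
      rw [hx1, hx2, hx3] at hcen
      change KT d r ξ T (η, η') = 0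
      rw [hcen]
      by_contra hc
      have hk : ker d r x η' ≠ 0 := fun h => hc (by rw [h]; simp)
      exact hη' (hT4 x hx1 (by rwa [hx2]) (by rwa [hx3])
        (image_mono (ball_subset_ball (by norm_num)) (mem_of_ker hr ha hk).2))
  have hmeas := KT_meas d hr0 hr ξ T
  have hBsc := secondCountable L
  calc mu d ζ C = ∫⁻ η' in C, 1 ∂(mu d ζ) := by rw [setLIntegral_one]
    _ = ∫⁻ η' in C, ∫⁻ η in interior K, KT d r ξ T (η, η') ∂(sig d ξ) ∂(mu d ζ) :=
        setLIntegral_congr_fun hC.measurableSet fun η' hη' => (hA η' hη').symm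
    _ ≤ ∫⁻ η', ∫⁻ η in interior K, KT d r ξ T (η, η') ∂(sig d ξ) ∂(mu d ζ) :=
        setLIntegral_le_lintegral _ _
    _ = ∫⁻ η in interior K, ∫⁻ η', KT d r ξ T (η, η') ∂(mu d ζ) ∂(sig d ξ) :=
        lintegral_lintegral_swap (f := fun η' η => KT d r ξ T (η, η'))
          (hmeas.comp measurable_swap).aemeasurable
    _ ≤ ∫⁻ η in interior K, (ENNReal.ofReal (Real.exp (2 * ε)) *
          ∫⁻ η', KT d r ξ T (η, η') ∂(mu d ξ) + ENNReal.ofReal (ε * Real.exp ε) * eD d ξ η)
          ∂(sig d ξ) :=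
        setLIntegral_mono' isOpen_interior.measurableSet hB
    _ = ENNReal.ofReal (Real.exp (2 * ε)) *
          ∫⁻ η in interior K, ∫⁻ η', KT d r ξ T (η, η') ∂(mu d ξ) ∂(sig d ξ)
          + ENNReal.ofReal (ε * Real.exp ε) * ∫⁻ η in interior K, eD d ξ η ∂(sig d ξ) := by
        rw [lintegral_add_right _ ((eD_meas d ξ).const_mul _),
          lintegral_const_mul _ (hmeas.lintegral_prod_right' (ν := mu d ξ)),
          lintegral_const_mul _ (eD_meas d ξ)]
    _ = ENNReal.ofReal (Real.exp (2 * ε)) *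
          ∫⁻ η', ∫⁻ η in interior K, KT d r ξ T (η, η') ∂(sig d ξ) ∂(mu d ξ)
          + ENNReal.ofReal (ε * Real.exp ε) * mu d ξ (interior K) := by
        rw [lintegral_lintegral_swap (f := fun η η' => KT d r ξ T (η, η')) hmeas.aemeasurable,
          mu, withDensity_apply _ isOpen_interior.measurableSet]
    _ ≤ ENNReal.ofReal (Real.exp (2 * ε)) * mu d ξ O
          + ENNReal.ofReal (ε * Real.exp ε) * mu d ξ O := by
        refine add_le_add (mul_le_mul_right ?_ _)
          (mul_le_mul_right (measure_mono (interior_subset.trans hKO)) _)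
        refine (lintegral_mono hD).trans ?_
        rw [lintegral_indicator_one hO.measurableSet]

theorem mu_le (d : Dens0 L) {ξ ζ : B} {C O : Set B} (hC : IsCompact C) (hO : IsOpen O)
    (hCO : C ⊆ O) (hξ : ξ ∉ O) (hζ : ζ ∉ O) : mu d ζ C ≤ mu d ξ O := by
  by_cases htop : mu d ξ O = ⊤
  · rw [htop]
    exact le_top
  have h1 : Tendsto (fun ε : ℝ => ENNReal.ofReal (Real.exp (2 * ε)) * mu d ξ O
      + ENNReal.ofReal (ε * Real.exp ε) * mu d ξ O) (𝓝[>] 0)
      (𝓝 (ENNReal.ofReal (Real.exp (2 * 0)) * mu d ξ O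
        + ENNReal.ofReal (0 * Real.exp 0) * mu d ξ O)) := by
    have c1 : Tendsto (fun ε : ℝ => ENNReal.ofReal (Real.exp (2 * ε))) (𝓝[>] 0)
        (𝓝 (ENNReal.ofReal (Real.exp (2 * 0)))) :=
      (((ENNReal.continuous_ofReal.comp (by fun_prop :
        Continuous fun ε : ℝ => Real.exp (2 * ε))).tendsto 0).mono_left nhdsWithin_le_nhds)
    have c2 : Tendsto (fun ε : ℝ => ENNReal.ofReal (ε * Real.exp ε)) (𝓝[>] 0)
        (𝓝 (ENNReal.ofReal (0 * Real.exp 0))) :=
      (((ENNReal.continuous_ofReal.comp (by fun_prop :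
        Continuous fun ε : ℝ => ε * Real.exp ε)).tendsto 0).mono_left nhdsWithin_le_nhds)
    exact (ENNReal.Tendsto.mul_const c1 (Or.inr htop)).add
      (ENNReal.Tendsto.mul_const c2 (Or.inr htop))
  have h2 : ENNReal.ofReal (Real.exp (2 * 0)) * mu d ξ O
        + ENNReal.ofReal (0 * Real.exp 0) * mu d ξ O = mu d ξ O := by simp
  rw [h2] at h1
  exact ge_of_tendsto h1 (by
    filter_upwards [self_mem_nhdsWithin] with ε hε
    exact mu_le_eps d hC hO hCO hξ hζ hε)

theorem mu_open_le (d : Dens0 L) {ξ ζ : B} {O : Set B} (hO : IsOpen O) (hξ : ξ ∉ O)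
    (hζ : ζ ∉ O) : mu d ζ O ≤ mu d ξ O := by
  have := metrizable L
  let _ := TopologicalSpace.metrizableSpaceMetric B
  obtain ⟨F, h1, h2, h3, h4⟩ := hO.exists_iUnion_isClosed
  conv_lhs => rw [← h3]
  rw [h4.measure_iUnion]
  exact iSup_le fun n => mu_le d (h1 n).isCompact hO (h2 n) hξ hζ

theorem mu_open (d : Dens0 L) {ξ ζ : B} {O : Set B} (hO : IsOpen O) (hξ : ξ ∉ O)
    (hζ : ζ ∉ O) : mu d ζ O = mu d ξ O :=
  le_antisymm (mu_open_le d hO hξ hζ) (mu_open_le d hO hζ hξ)

end Vale.Agent.P207.N3.H824
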