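import Vale.Agent.P207.N3.H824.Top

/-!
# Shrinking discs (helper824, P2-N)
-/

open Set Filter Topology Metric MeasureTheory
open scoped ContDiff

noncomputable section

namespace Vale.Agent.P207.N3.H824

variable {Γ X B : Type} [Group Γ] [MetricSpace X] [ProperSpace X] [MulAction Γ X]
  [IsIsometricSMul Γ X] [TopologicalSpace B] [CompactSpace B] [T2Space B] [MulAction Γ B]
  [ContinuousConstSMul Γ B]

variable (L : Leaf Γ X B)

theorem tau_inv (x y : X) (u : E2) : L.τ x y u = inv L y (L.e x u) := rfl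

theorem dm_φ {t : ℝ} (ht : L.t1 ≤ t) (x : X) : ball (0 : E2) 3 ⊆ L.dm (L.φ t x) x := by
  intro u hu
  refine ⟨hu, ?_⟩
  exact image_mono (ball_subset_ball (by norm_num))
    (L.engulf x t ht ⟨u, ball_subset_closedBall hu, rfl⟩)

/-- the disc of `φ t x` is a small neighbourhood of the centre of the disc of `x` -/
theorem shrink0 : ∃ C, 0 ≤ C ∧ ∀ x, ∀ t ≥ L.t1, ∀ u ∈ ball (0 : E2) 3,
    ∃ v ∈ ball (0 : E2) 1, ‖v‖ ≤ C * Real.exp (-L.χ * t) ∧ L.e (L.φ t x) u = L.e x v := by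
  obtain ⟨C, hC⟩ := L.contract 1 le_rfl
  have hC0 : 0 ≤ C := by
    obtain ⟨x⟩ := L.nonempty
    have := (norm_nonneg _).trans (hC x L.t1 le_rfl 0 (mem_ball_self (by norm_num)))
    exact nonneg_of_mul_nonneg_left this (Real.exp_pos _)
  refine ⟨3 * C, by positivity, fun x t ht u hu => ?_⟩
  have hs : ContDiffOn ℝ ∞ (L.τ (L.φ t x) x) (ball (0 : E2) 3) :=
    (L.tau_smooth _ _ (L.em_φ t x)).mono (dm_φ L ht x)
  have hd : ∀ v ∈ ball (0 : E2) 3, DifferentiableAt ℝ (L.τ (L.φ t x) x) v := fun v hv =>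
    (hs.contDiffAt (isOpen_ball.mem_nhds hv)).differentiableAt (by simp)
  have hb : ∀ v ∈ ball (0 : E2) 3, ‖fderiv ℝ (L.τ (L.φ t x) x) v‖ ≤ C * Real.exp (-L.χ * t) := by
    intro v hv
    have := hC x t ht v hv
    rwa [norm_iteratedFDeriv_one] at this
  have h0 : L.τ (L.φ t x) x 0 = 0 := by
    rw [tau_inv, L.e_zero, ep_φ, ← L.e_zero, inv_e (mem_closedBall_self (by norm_num))]
  have h1 := (convex_ball (0 : E2) 3).norm_image_sub_le_of_norm_fderiv_le hd hb
    (mem_ball_self (by norm_num)) hu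
  rw [h0, sub_zero, sub_zero] at h1
  have hm : L.e (L.φ t x) u ∈ L.e x '' ball 0 1 :=
    L.engulf x t ht ⟨u, ball_subset_closedBall hu, rfl⟩
  have hm1 : L.e (L.φ t x) u ∈ L.e x '' closedBall 0 3 :=
    image_mono (ball_subset_closedBall.trans (closedBall_subset_closedBall (by norm_num))) hm
  refine ⟨L.τ (L.φ t x) x u, ?_, ?_, ?_⟩
  · exact inv_mem' (ball_subset_closedBall.trans (closedBall_subset_closedBall (by norm_num))) hm
  · refine h1.trans ?_
    have hu3 : ‖u‖ ≤ 3 := (mem_ball_zero_iff.1 hu).le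
    have := mul_le_mul_of_nonneg_left hu3 (mul_nonneg hC0 (Real.exp_pos (-L.χ * t)).le)
    linarith
  · rw [tau_inv, e_inv hm1]

/-- a neighbourhood of the centres contains small discs -/
theorem tube {K : Set X} (hK : IsCompact K) {O : Set (X × B)} (hO : IsOpen O)
    (h : ∀ x ∈ K, (x, L.ep x) ∈ O) :
    ∃ ρ > 0, ρ < 3 ∧ ∀ x ∈ K, ∀ v, ‖v‖ < ρ → (x, L.e x v) ∈ O := by
  have hc : ContinuousOn (fun p : X × E2 => (p.1, L.e p.1 p.2)) (univ ×ˢ ball 0 3) :=
    continuousOn_fst.prodMk (L.e_cont.mono (prod_mono le_rfl ball_subset_closedBall))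
  have ho := hc.isOpen_inter_preimage (isOpen_univ.prod isOpen_ball) hO
  obtain ⟨u, v, hu, hv, hKu, h0v, huv⟩ := generalized_tube_lemma hK
    (isCompact_singleton (x := (0 : E2))) ho (by
      rintro ⟨x, w⟩ ⟨hx, hw⟩
      have hw' : w = 0 := hw
      subst hw'
      refine ⟨⟨mem_univ _, mem_ball_self (by norm_num)⟩, ?_⟩
      have := h x hx
      rw [← L.e_zero] at this
      exact this)
  obtain ⟨ρ, hρ, hb⟩ := Metric.isOpen_iff.1 hv 0 (h0v rfl)
  refine ⟨min ρ 2, by positivity, ?_, fun x hx w hw => ?_⟩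
  · exact (min_le_right _ _).trans_lt (by norm_num)
  · have hw' : w ∈ ball (0 : E2) ρ := mem_ball_zero_iff.2 (hw.trans_le (min_le_left _ _))
    exact (huv (⟨hKu hx, hb hw'⟩ : (x, w) ∈ u ×ˢ v)).2

/-- the discs of `φ t x` shrink to `ep x`, uniformly on compact sets -/
theorem shrink {K : Set X} (hK : IsCompact K) {O : Set (X × B)} (hO : IsOpen O)
    (h : ∀ x ∈ K, (x, L.ep x) ∈ O) :
    ∃ T, ∀ x ∈ K, ∀ t ≥ T, ∀ u ∈ ball (0 : E2) 3, (x, L.e (L.φ t x) u) ∈ O := by
  obtain ⟨ρ, hρ, -, h1⟩ := tube L hK hO h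
  obtain ⟨C, hC0, hC⟩ := shrink0 L
  have h2 : Tendsto (fun t : ℝ => C * Real.exp (-L.χ * t)) atTop (𝓝 (C * 0)) := by
    refine Tendsto.const_mul _ (Real.tendsto_exp_atBot.comp ?_)
    exact tendsto_id.const_mul_atTop_of_neg (by linarith [L.χ_pos])
  rw [mul_zero] at h2
  obtain ⟨T, hT⟩ := (((h2.eventually (gt_mem_nhds hρ))).and
    (eventually_ge_atTop L.t1)).exists_forall_of_atTop
  refine ⟨T, fun x hx t ht u hu => ?_⟩
  obtain ⟨v, _, hv, hv'⟩ := hC x t (hT t ht).2 u hu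
  rw [hv']
  exact h1 x hx v (hv.trans_lt (hT t ht).1)

include L in
theorem seq_compact (x z : ℕ → X) (C : ℝ) (h : ∀ n, dist (x n) (z n) ≤ C) :
    ∃ (g : ℕ → Γ) (k : ℕ → ℕ) (x' z' : X), StrictMono k ∧
      Tendsto (fun n => g (k n) • x (k n)) atTop (𝓝 x') ∧
      Tendsto (fun n => g (k n) • z (k n)) atTop (𝓝 z') := by
  obtain ⟨K, hK, hg⟩ := L.cocompact
  choose g hg using fun n => hg (x n)
  obtain ⟨x0⟩ := L.nonempty
  obtain ⟨R, hR⟩ := hK.isBounded.subset_closedBall x0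
  have hz : ∀ n, g n • z n ∈ closedBall x0 (R + C) := by
    intro n
    have h1 : dist (g n • z n) (g n • x n) ≤ C := by
      rw [dist_smul, dist_comm]
      exact h n
    have h2 : dist (g n • x n) x0 ≤ R := hR (hg n)
    exact (dist_triangle _ _ _).trans (by linarith)
  obtain ⟨p, _, k, hk, hp⟩ := (hK.prod (isCompact_closedBall x0 (R + C))).tendsto_subseq
    (x := fun n => (g n • x n, g n • z n)) (fun n => ⟨hg n, hz n⟩)
  exact ⟨g, k, p.1, p.2, hk, (continuous_fst.tendsto p).comp hp, (continuous_snd.tendsto p).comp hp⟩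

/-- symmetry of small discs -/
theorem exists_r : ∃ r, 0 < r ∧ r ≤ 1 ∧ ∀ x z, L.em x = L.em z → L.lv x = L.lv z →
    L.ep x ∈ L.e z '' closedBall 0 r → L.ep z ∈ L.e x '' ball 0 1 := by
  by_contra hcon
  push Not at hcon
  have h1 : ∀ n : ℕ, ∃ x z, L.em x = L.em z ∧ L.lv x = L.lv z ∧
      L.ep x ∈ L.e z '' closedBall 0 (1 / ((n : ℝ) + 1)) ∧ L.ep z ∉ L.e x '' ball 0 1 := by
    intro n
    obtain ⟨x, z, h⟩ := hcon (1 / ((n : ℝ) + 1)) (by positivity) (by
      rw [div_le_one (by positivity)]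
      have : (0 : ℝ) ≤ n := by positivity
      linarith)
    exact ⟨x, z, h⟩
  choose x z hem hlv hx hz using h1
  choose u hu hue using hx
  obtain ⟨C, hC⟩ := L.near 0
  have h13 : ∀ n : ℕ, closedBall (0 : E2) (1 / ((n : ℝ) + 1)) ⊆ closedBall 0 3 := fun n => by
    have h0 : (0 : ℝ) ≤ n := by positivity
    have h2 : (1 : ℝ) / ((n : ℝ) + 1) ≤ 1 := by
      have h3 : (0 : ℝ) < (n : ℝ) + 1 := by positivity
      rw [div_le_one h3]
      linarith
    exact closedBall_subset_closedBall (h2.trans (by norm_num))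
  have hd : ∀ n, dist (x n) (z n) ≤ C := fun n => hC _ _ (hem n) (by simp [hlv n])
    ⟨L.ep (x n), ⟨0, mem_closedBall_self (by norm_num), L.e_zero _⟩, ⟨u n, h13 n (hu n), hue n⟩⟩
  obtain ⟨g, k, x', z', hk, hx', hz'⟩ := seq_compact L x z C hd
  have e1 : L.em x' = L.em z' := by
    refine tendsto_nhds_unique ((L.em_cont.tendsto x').comp hx') ?_
    have := (L.em_cont.tendsto z').comp hz'
    refine this.congr fun n => ?_
    simp only [Function.comp_apply, L.em_smul, hem]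
  have e2 : L.lv x' = L.lv z' := by
    refine tendsto_nhds_unique ((L.lv_cont.tendsto x').comp hx') ?_
    have := (L.lv_cont.tendsto z').comp hz'
    refine this.congr fun n => ?_
    have h3 := L.lv_smul (g (k n)) (x (k n)) (z (k n)) (hem _)
    rw [hlv, sub_self] at h3
    simp only [Function.comp_apply]
    linarith
  have hu0 : Tendsto u atTop (𝓝 0) := by
    rw [tendsto_zero_iff_norm_tendsto_zero]
    exact squeeze_zero (fun n => norm_nonneg _) (fun n => mem_closedBall_zero_iff.1 (hu n))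
      tendsto_one_div_add_atTop_nhds_zero_nat
  have e3 : L.ep x' = L.ep z' := by
    refine tendsto_nhds_unique (((ep_cont L).tendsto x').comp hx') ?_
    have h4 : Tendsto (fun n => L.e (g (k n) • z (k n)) (u (k n))) atTop (𝓝 (L.e z' 0)) := by
      have hc : ContinuousAt (fun p : X × E2 => L.e p.1 p.2) (z', 0) :=
        L.e_cont.continuousAt (prod_mem_nhds univ_mem (closedBall_mem_nhds _ (by norm_num)))
      exact hc.tendsto.comp (hz'.prodMk_nhds (hu0.comp hk.tendsto_atTop))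
    rw [L.e_zero] at h4
    refine h4.congr fun n => ?_
    simp only [Function.comp_apply]
    rw [L.e_smul _ _ _ (h13 _ (hu _)), hue, ep_smul]
  have hO := open_disc L (ρ := 1) (by norm_num)
  have hm : (x', L.ep z') ∈ {p : X × B | p.2 ∈ L.e p.1 '' ball 0 1} := by
    rw [← e3]
    exact mem_disc L x' (by norm_num)
  have h5 : Tendsto (fun n => (g (k n) • x (k n), L.ep (g (k n) • z (k n)))) atTop
      (𝓝 (x', L.ep z')) := hx'.prodMk_nhds (((ep_cont L).tendsto z').comp hz')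
  obtain ⟨n, hn⟩ := (h5.eventually (hO.mem_nhds hm)).exists
  obtain ⟨v, hv, hve⟩ := hn
  apply hz (k n)
  refine ⟨v, hv, ?_⟩
  simp only at hve
  rw [L.e_smul _ _ _ (ball_subset_closedBall (ball_subset_ball (by norm_num) hv)), ep_smul] at hve
  exact smul_left_cancel _ hve

/-- discs of close frames -/
theorem exists_enl : ∃ δ > 0, ∀ x x' : X, dist x x' < δ →
    L.e x '' closedBall 0 1 ⊆ L.e x' '' ball 0 2 := by
  obtain ⟨K, hK, hg⟩ := L.cocompact
  have h13 : closedBall (0 : E2) 1 ⊆ ball 0 3 := closedBall_subset_ball (by norm_num)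
  have hc : ContinuousOn (fun p : (X × X) × E2 => (p.1.2, L.e p.1.1 p.2)) (univ ×ˢ ball 0 3) := by
    refine ContinuousOn.prodMk (by fun_prop) ?_
    exact L.e_cont.comp (f := fun p : (X × X) × E2 => (p.1.1, p.2)) (by fun_prop)
      (fun p hp => ⟨mem_univ _, ball_subset_closedBall hp.2⟩)
  have ho := hc.isOpen_inter_preimage (isOpen_univ.prod isOpen_ball)
    (open_disc L (ρ := 2) (by norm_num))
  have hK2 : IsCompact ((fun x : X => (x, x)) '' K) := hK.image (by fun_prop)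
  obtain ⟨u, v, hu, hv, hKu, h0v, huv⟩ := generalized_tube_lemma hK2
    (isCompact_closedBall (0 : E2) 1) ho (by
      rintro ⟨_, w⟩ ⟨⟨x, hx, rfl⟩, hw⟩
      refine ⟨⟨mem_univ _, h13 hw⟩, ?_⟩
      exact ⟨w, closedBall_subset_ball (by norm_num) hw, rfl⟩)
  obtain ⟨δ, hδ, hth⟩ := hK2.exists_thickening_subset_open hu hKu
  refine ⟨δ, hδ, fun x x' hxx => ?_⟩
  rintro _ ⟨w, hw, rfl⟩
  obtain ⟨g, hgx⟩ := hg x
  have h1 : (g • x, g • x') ∈ u := by
    apply hth
    rw [mem_thickening_iff]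
    refine ⟨(g • x, g • x), ⟨g • x, hgx, rfl⟩, ?_⟩
    rw [Prod.dist_eq]
    simp only [dist_self]
    rw [max_lt_iff]
    refine ⟨hδ, ?_⟩
    rw [dist_smul, dist_comm]
    exact hxx
  obtain ⟨w', hw', he⟩ := (huv (⟨h1, h0v hw⟩ : ((g • x, g • x'), w) ∈ u ×ˢ v)).2
  refine ⟨w', hw', ?_⟩
  simp only at he
  rw [L.e_smul _ _ _ (ball_subset_closedBall (ball_subset_ball (by norm_num) hw')),
    L.e_smul _ _ _ (ball_subset_closedBall (h13 hw))] at he
  exact smul_left_cancel _ he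

include L in
/-- a continuous invariant function on `X × X` is uniformly continuous along the diagonal -/
theorem unif_diag {J : X × X → ℝ} (hJ : Continuous J)
    (hi : ∀ (g : Γ) (x y : X), J (g • x, g • y) = J (x, y)) {ε : ℝ} (hε : 0 < ε) :
    ∃ δ > 0, ∀ x x', dist x x' < δ → |J (x, x') - J (x, x)| < ε := by
  obtain ⟨K, hK, hg⟩ := L.cocompact
  have ho : IsOpen {p : X × X | |J p - J (p.1, p.1)| < ε} :=
    isOpen_lt (by fun_prop) continuous_const
  have hK2 : IsCompact ((fun x : X => (x, x)) '' K) := hK.image (by fun_prop)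
  obtain ⟨δ, hδ, hth⟩ := hK2.exists_thickening_subset_open ho (by
    rintro _ ⟨x, hx, rfl⟩
    simpa using hε)
  refine ⟨δ, hδ, fun x x' hxx => ?_⟩
  obtain ⟨g, hgx⟩ := hg x
  have h1 : (g • x, g • x') ∈ {p : X × X | |J p - J (p.1, p.1)| < ε} := by
    apply hth
    rw [mem_thickening_iff]
    refine ⟨(g • x, g • x), ⟨g • x, hgx, rfl⟩, ?_⟩
    rw [Prod.dist_eq]
    simp only [dist_self]
    rw [max_lt_iff]
    refine ⟨hδ, ?_⟩
    rw [dist_smul, dist_comm]
    exact hxx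
  have h2 : |J (g • x, g • x') - J (g • x, g • x)| < ε := h1
  rwa [hi, hi] at h2

include L in
/-- a continuous invariant function is bounded -/
theorem bdd_inv {J : X → ℝ} (hJ : Continuous J) (hi : ∀ (g : Γ) (x : X), J (g • x) = J x) :
    ∃ C, ∀ x, |J x| ≤ C := by
  obtain ⟨K, hK, hg⟩ := L.cocompact
  obtain ⟨C, hC⟩ := (hK.image hJ).isBounded.subset_closedBall 0
  refine ⟨C, fun x => ?_⟩
  obtain ⟨g, hgx⟩ := hg x
  have := hC ⟨g • x, hgx, rfl⟩
  rw [hi, mem_closedBall_zero_iff] at this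
  exact this

/-! ### Compact sets of frames over compact sets of end points -/

theorem compact_frames {ξ : B} {K : Set B} (hK : IsCompact K) (h : ξ ∉ K) (t : ℝ) :
    IsCompact {x : X | L.em x = ξ ∧ L.ep x ∈ K ∧ L.lv x = t} := by
  have h1 := L.hopf_proper ({ξ} ×ˢ K) (isCompact_singleton.prod hK) (by
    rintro ⟨a, b⟩ ⟨ha, hb⟩
    have ha' : a = ξ := ha
    subst ha'
    intro hab
    exact h (by
      have : a = b := hab
      rw [this]
      exact hb)) |t|
  refine h1.of_isClosed_subset ?_ ?_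
  · have a1 : IsClosed {x : X | L.em x = ξ} := isClosed_eq L.em_cont continuous_const
    have a2 : IsClosed {x : X | L.ep x ∈ K} := hK.isClosed.preimage (ep_cont L)
    have a3 : IsClosed {x : X | L.lv x = t} := isClosed_eq L.lv_cont continuous_const
    exact a1.inter (a2.inter a3)
  · rintro x ⟨h2, h3, h4⟩
    exact ⟨⟨h2, h3⟩, by rw [h4]⟩

end Vale.Agent.P207.N3.H824
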